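import Mathlib

/-!
# Mass lemma (Lacey-Thiele), abstract form

`count` : counting of an antichain of tiles, one enlargement parameter.
`count_all` : the same with a decaying weight.
`mass_trees` : selection of tops of the heavy tiles.
-/

namespace Vale.Agent.P091.CH.H98

open MeasureTheory

variable {τ X F : Type*} [MeasurableSpace X]

/-- Counting for one enlargement: `B u` is the enlarged interval, `B' u` a further enlargement. -/
theorem count [DecidableEq τ] (μ : Measure X) [IsFiniteMeasure μ] (N : X → F)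
    (len : τ → ℝ) (I B B' : τ → Set X) (w : τ → Set F) (b c : ℝ) (hb : 0 ≤ b) (hc : 0 < c) :
    ∀ (U : Finset τ) (E : Set X), 
      (∀ u ∈ U, 0 < len u) →
      (∀ u ∈ U, len u ≤ μ.real (I u)) →
      (∀ u ∈ U, MeasurableSet (I u)) →
      (∀ u ∈ U, μ.real (B' u) ≤ b * len u) →
      (∀ u ∈ U, ∀ v ∈ U, len v ≤ len u → (w u ∩ w v).Nonempty → (B u ∩ B v).Nonempty →
        I v ⊆ B' u ∧ w u ⊆ w v) →
      (∀ u ∈ U, ∀ v ∈ U, u ≠ v → (w u ∩ w v).Nonempty → Disjoint (I u) (I v)) →
      (∀ u ∈ U, MeasurableSet {x ∈ E ∩ B u | N x ∈ w u}) →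
      (∀ u ∈ U, c * len u ≤ μ.real {x ∈ E ∩ B u | N x ∈ w u}) →
      ∑ u ∈ U, len u ≤ b / c * μ.real E := by
  intro U
  induction U using Finset.strongInduction with
  | H U ih =>
    intro E hlen hI hmI hB' hgeo hanti hmE hbig
    rcases U.eq_empty_or_nonempty with rfl | hne
    · simp only [Finset.sum_empty]; positivity
    obtain ⟨u, huU, humax⟩ := U.exists_max_image len hne
    set A : τ → Set X := fun v => {x ∈ E ∩ B v | N x ∈ w v} with hA
    have hApos : ∀ v ∈ U, 0 < μ.real (A v) := fun v hv =>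
      lt_of_lt_of_le (mul_pos hc (hlen v hv)) (hbig v hv)
    have hAne : ∀ v ∈ U, (A v).Nonempty := by
      intro v hv
      by_contra h
      rw [Set.not_nonempty_iff_eq_empty] at h
      have := hApos v hv
      rw [h] at this
      simp at this
    classical
    set V : Finset τ := U.filter (fun v => (w u ∩ w v).Nonempty ∧ (B u ∩ B v).Nonempty) with hV
    have huV : u ∈ V := by
      obtain ⟨x, hx⟩ := hAne u huU
      rw [hV, Finset.mem_filter]
      refine ⟨huU, ⟨N x, hx.2, hx.2⟩, ⟨x, hx.1.2, hx.1.2⟩⟩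
    have hVU : V ⊆ U := Finset.filter_subset _ _
    have hVin : ∀ v ∈ V, I v ⊆ B' u ∧ w u ⊆ w v := by
      intro v hv
      have h := Finset.mem_filter.1 hv
      exact hgeo u huU v h.1 (humax v h.1) h.2.1 h.2.2
    have hwne : (w u).Nonempty := by
      obtain ⟨x, hx⟩ := hAne u huU
      exact ⟨N x, hx.2⟩
    -- the part V
    have h1 : ∑ v ∈ V, len v ≤ b * len u := by
      calc ∑ v ∈ V, len v ≤ ∑ v ∈ V, μ.real (I v) :=
            Finset.sum_le_sum fun v hv => hI v (hVU hv)
        _ = μ.real (⋃ v ∈ V, I v) := by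
            rw [measureReal_biUnion_finset]
            · intro v hv v' hv' hne'
              have hv1 := hVin v hv
              have hv2 := hVin v' hv'
              obtain ⟨y, hy⟩ := hwne
              exact hanti v (hVU hv) v' (hVU hv') hne' ⟨y, hv1.2 hy, hv2.2 hy⟩
            · intro v hv
              exact hmI v (hVU hv)
        _ ≤ μ.real (B' u) := by
            exact measureReal_mono (Set.iUnion₂_subset fun v hv => (hVin v hv).1)
              (measure_ne_top _ _)
        _ ≤ b * len u := hB' u huU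
    have h2 : b * len u ≤ b / c * μ.real (A u) := by
      have := hbig u huU
      rw [div_mul_eq_mul_div, le_div_iff₀ hc]
      nlinarith [mul_le_mul_of_nonneg_left this hb]
    -- the rest
    have hss : U \ V ⊂ U := by
      refine Finset.ssubset_iff_subset_ne.2 ⟨Finset.sdiff_subset, ?_⟩
      intro h
      have : u ∈ U \ V := by rw [h]; exact huU
      exact (Finset.mem_sdiff.1 this).2 huV
    have hEA : ∀ v ∈ U \ V, {x ∈ (E \ A u) ∩ B v | N x ∈ w v} = A v := by
      intro v hv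
      have hvU := (Finset.mem_sdiff.1 hv).1
      have hvV := (Finset.mem_sdiff.1 hv).2
      ext x
      constructor
      · rintro ⟨⟨hxE, hxB⟩, hxw⟩
        exact ⟨⟨hxE.1, hxB⟩, hxw⟩
      · rintro ⟨⟨hxE, hxB⟩, hxw⟩
        refine ⟨⟨⟨hxE, ?_⟩, hxB⟩, hxw⟩
        intro hxA
        apply hvV
        rw [hV, Finset.mem_filter]
        exact ⟨hvU, ⟨N x, hxA.2, hxw⟩, ⟨x, hxA.1.2, hxB⟩⟩
    have hsub : ∀ v ∈ U \ V, v ∈ U := fun v hv => (Finset.mem_sdiff.1 hv).1
    have h3 := ih (U \ V) hss (E \ A u) (fun v hv => hlen v (hsub v hv))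
      (fun v hv => hI v (hsub v hv)) (fun v hv => hmI v (hsub v hv))
      (fun v hv => hB' v (hsub v hv))
      (fun v hv v' hv' => hgeo v (hsub v hv) v' (hsub v' hv'))
      (fun v hv v' hv' => hanti v (hsub v hv) v' (hsub v' hv'))
      (fun v hv => by rw [hEA v hv]; exact hmE v (hsub v hv))
      (fun v hv => by rw [hEA v hv]; exact hbig v (hsub v hv))
    have h4 : μ.real (E \ A u) = μ.real E - μ.real (A u) :=
      measureReal_sdiff (fun x hx => hx.1.1) (hmE u huU) (measure_ne_top _ _)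
    calc ∑ v ∈ U, len v = ∑ v ∈ U \ V, len v + ∑ v ∈ V, len v :=
          (Finset.sum_sdiff hVU).symm
      _ ≤ b / c * μ.real (E \ A u) + b / c * μ.real (A u) := add_le_add h3 (h1.trans h2)
      _ = b / c * μ.real E := by rw [h4]; ring

/-- Counting with a weight: `W u ≤ ∑ k < K, a k 1_{B k u}`. -/
theorem count_all [DecidableEq τ] (μ : Measure X) [IsFiniteMeasure μ] (N : X → F)
    (len : τ → ℝ) (I : τ → Set X) (B B' : ℕ → τ → Set X) (w : τ → Set F)
    (W : τ → X → ℝ) (K : ℕ) (a b c : ℕ → ℝ) (hb : ∀ k, 0 ≤ b k) (hc : ∀ k, 0 < c k)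
    (ha : ∀ k, 0 ≤ a k) (hac : ∑ k ∈ Finset.range K, a k * c k ≤ 1)
    (U : Finset τ) (E : Set X) (m : ℝ) (hm : 0 < m)
    (hlen : ∀ u ∈ U, 0 < len u)
    (hI : ∀ u ∈ U, len u ≤ μ.real (I u))
    (hmI : ∀ u ∈ U, MeasurableSet (I u))
    (hB' : ∀ k < K, ∀ u ∈ U, μ.real (B' k u) ≤ b k * len u)
    (hgeo : ∀ k < K, ∀ u ∈ U, ∀ v ∈ U, len v ≤ len u → (w u ∩ w v).Nonempty →
      (B k u ∩ B k v).Nonempty → I v ⊆ B' k u ∧ w u ⊆ w v)
    (hanti : ∀ u ∈ U, ∀ v ∈ U, u ≠ v → (w u ∩ w v).Nonempty → Disjoint (I u) (I v))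
    (hmE : ∀ u ∈ U, MeasurableSet {x ∈ E | N x ∈ w u})
    (hmB : ∀ k < K, ∀ u ∈ U, MeasurableSet (B k u))
    (hW : ∀ u ∈ U, ∀ x, W u x ≤ ∑ k ∈ Finset.range K, a k * (B k u).indicator (fun _ => 1) x)
    (hW0 : ∀ u ∈ U, ∀ x, 0 ≤ W u x)
    (hheavy : ∀ u ∈ U, m * len u < ∫ x in {x ∈ E | N x ∈ w u}, W u x ∂μ) :
    ∑ u ∈ U, len u ≤ (∑ k ∈ Finset.range K, b k / c k) / m * μ.real E := by
  classical
  set A : ℕ → τ → Set X := fun k v => {x ∈ E ∩ B k v | N x ∈ w v} with hA
  set Uk : ℕ → Finset τ := fun k => U.filter (fun u => c k * m * len u ≤ μ.real (A k u)) with hUk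
  have hAeq : ∀ k v, A k v = {x ∈ E | N x ∈ w v} ∩ B k v := by
    intro k v
    ext x
    simp only [hA, Set.mem_ofPred_eq, Set.mem_inter_iff]
    tauto
  have hcov : ∀ u ∈ U, ∃ k < K, u ∈ Uk k := by
    intro u hu
    by_contra hcon
    push Not at hcon
    have h1 : ∀ k < K, μ.real (A k u) ≤ c k * m * len u := by
      intro k hk
      have := hcon k hk
      rw [hUk] at this
      simp only [Finset.mem_filter, not_and, not_le] at this
      exact (this hu).le
    have h2 : ∫ x in {x ∈ E | N x ∈ w u}, W u x ∂μ ≤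
        ∫ x in {x ∈ E | N x ∈ w u}, 
          ∑ k ∈ Finset.range K, a k * (B k u).indicator (fun _ => (1:ℝ)) x ∂μ := by
      apply integral_mono_of_nonneg
      · exact Filter.Eventually.of_forall fun x => hW0 u hu x
      · apply integrable_finsetSum
        intro k hk
        apply Integrable.const_mul
        exact (integrable_const (1:ℝ)).indicator (hmB k (Finset.mem_range.1 hk) u hu)
      · exact Filter.Eventually.of_forall fun x => hW u hu x
    have h3 : ∫ x in {x ∈ E | N x ∈ w u}, 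
          ∑ k ∈ Finset.range K, a k * (B k u).indicator (fun _ => (1:ℝ)) x ∂μ =
        ∑ k ∈ Finset.range K, a k * μ.real (A k u) := by
      rw [integral_finsetSum]
      · apply Finset.sum_congr rfl
        intro k hk
        rw [integral_const_mul, integral_indicator (hmB k (Finset.mem_range.1 hk) u hu)]
        simp only [integral_const, smul_eq_mul, mul_one]
        rw [hAeq, measureReal_restrict_apply MeasurableSet.univ, Set.univ_inter,
          measureReal_restrict_apply (hmB k (Finset.mem_range.1 hk) u hu), Set.inter_comm]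
      · intro k hk
        apply Integrable.const_mul
        exact (integrable_const (1:ℝ)).indicator (hmB k (Finset.mem_range.1 hk) u hu)
    have h4 : ∑ k ∈ Finset.range K, a k * μ.real (A k u) ≤ m * len u := by
      calc ∑ k ∈ Finset.range K, a k * μ.real (A k u)
          ≤ ∑ k ∈ Finset.range K, a k * (c k * m * len u) :=
            Finset.sum_le_sum fun k hk =>
              mul_le_mul_of_nonneg_left (h1 k (Finset.mem_range.1 hk)) (ha k)
        _ = (∑ k ∈ Finset.range K, a k * c k) * (m * len u) := by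
            rw [Finset.sum_mul]; exact Finset.sum_congr rfl fun k _ => by ring
        _ ≤ 1 * (m * len u) :=
            mul_le_mul_of_nonneg_right hac (mul_pos hm (hlen u hu)).le
        _ = m * len u := one_mul _
    have := hheavy u hu
    linarith [h2, h3.le, h4]
  have hk : ∀ k ∈ Finset.range K, ∑ u ∈ Uk k, len u ≤ b k / c k / m * μ.real E := by
    intro k hk
    have hkK := Finset.mem_range.1 hk
    have hsub : ∀ u ∈ Uk k, u ∈ U := fun u hu => (Finset.mem_filter.1 hu).1
    have := count μ N len I (B k) (B' k) w (b k) (c k * m) (hb k) (mul_pos (hc k) hm) (Uk k) E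
      (fun u hu => hlen u (hsub u hu)) (fun u hu => hI u (hsub u hu))
      (fun u hu => hmI u (hsub u hu)) (fun u hu => hB' k hkK u (hsub u hu))
      (fun u hu v hv => hgeo k hkK u (hsub u hu) v (hsub v hv))
      (fun u hu v hv => hanti u (hsub u hu) v (hsub v hv))
      (fun u hu => by
        have := (hmE u (hsub u hu)).inter (hmB k hkK u (hsub u hu))
        rw [← hAeq k u] at this
        exact this)
      (fun u hu => (Finset.mem_filter.1 hu).2)
    rw [div_div]
    exact this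
  calc ∑ u ∈ U, len u ≤ ∑ u ∈ (Finset.range K).biUnion Uk, len u := by
        apply Finset.sum_le_sum_of_subset_of_nonneg
        · intro u hu
          obtain ⟨k, hkK, hk⟩ := hcov u hu
          exact Finset.mem_biUnion.2 ⟨k, Finset.mem_range.2 hkK, hk⟩
        · intro u hu _
          obtain ⟨k, _, hk⟩ := Finset.mem_biUnion.1 hu
          exact (hlen u (Finset.mem_filter.1 hk).1).le
    _ ≤ ∑ k ∈ Finset.range K, ∑ u ∈ Uk k, len u := by
        have key : ∀ R : Finset ℕ, ∑ u ∈ R.biUnion Uk, len u ≤ ∑ k ∈ R, ∑ u ∈ Uk k, len u := by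
          intro R
          induction R using Finset.induction_on with
          | empty => simp
          | insert k R hkR ihR =>
            rw [Finset.biUnion_insert, Finset.sum_insert hkR]
            have h0 : ∑ u ∈ Uk k ∪ R.biUnion Uk, len u + ∑ u ∈ Uk k ∩ R.biUnion Uk, len u =
                ∑ u ∈ Uk k, len u + ∑ u ∈ R.biUnion Uk, len u := Finset.sum_union_inter
            have h1 : 0 ≤ ∑ u ∈ Uk k ∩ R.biUnion Uk, len u :=
              Finset.sum_nonneg fun u hu =>
                (hlen u (Finset.mem_filter.1 (Finset.mem_inter.1 hu).1).1).le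
            linarith
        exact key _
    _ ≤ ∑ k ∈ Finset.range K, b k / c k / m * μ.real E := Finset.sum_le_sum hk
    _ = (∑ k ∈ Finset.range K, b k / c k) / m * μ.real E := by
        rw [Finset.sum_div, Finset.sum_mul]

/-- Tops of the heavy tiles. `r s u` : `s ≤ u`; `Tl` a finite set of tiles, `M u` the mass of a
single tile. All `s` below some heavy `u` are covered by trees with tops in `U`. -/
theorem mass_trees [DecidableEq τ] (μ : Measure X) [IsFiniteMeasure μ] (N : X → F)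
    (r : τ → τ → Prop) (hrefl : ∀ u, r u u) (htrans : ∀ u v z, r u v → r v z → r u z)
    (hasymm : ∀ u v, r u v → r v u → u = v)
    (len : τ → ℝ) (I : τ → Set X) (B B' : ℕ → τ → Set X) (w : τ → Set F)
    (W : τ → X → ℝ) (K : ℕ) (a b c : ℕ → ℝ) (hb : ∀ k, 0 ≤ b k) (hc : ∀ k, 0 < c k)
    (ha : ∀ k, 0 ≤ a k) (hac : ∑ k ∈ Finset.range K, a k * c k ≤ 1)
    (Tl : Finset τ) (E : Set X)
    (hlen : ∀ u ∈ Tl, 0 < len u)
    (hI : ∀ u ∈ Tl, len u ≤ μ.real (I u))
    (hmI : ∀ u ∈ Tl, MeasurableSet (I u))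
    (hB' : ∀ k < K, ∀ u ∈ Tl, μ.real (B' k u) ≤ b k * len u)
    (hgeo : ∀ k < K, ∀ u ∈ Tl, ∀ v ∈ Tl, len v ≤ len u → (w u ∩ w v).Nonempty →
      (B k u ∩ B k v).Nonempty → I v ⊆ B' k u ∧ w u ⊆ w v)
    (hcomp : ∀ u ∈ Tl, ∀ v ∈ Tl, (w u ∩ w v).Nonempty → (I u ∩ I v).Nonempty → r u v ∨ r v u)
    (hmE : ∀ u ∈ Tl, MeasurableSet {x ∈ E | N x ∈ w u})
    (hmB : ∀ k < K, ∀ u ∈ Tl, MeasurableSet (B k u))
    (hW : ∀ u ∈ Tl, ∀ x, W u x ≤ ∑ k ∈ Finset.range K, a k * (B k u).indicator (fun _ => 1) x)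
    (hW0 : ∀ u ∈ Tl, ∀ x, 0 ≤ W u x) (P : Finset τ) (m : ℝ) (hm : 0 < m) :
    ∃ U ⊆ Tl, (∀ u ∈ U, ∃ s ∈ P, r s u) ∧
      (∀ u ∈ U, ∀ v ∈ U, r u v → u = v) ∧
      ∑ u ∈ U, len u ≤ (∑ k ∈ Finset.range K, b k / c k) / m * μ.real E ∧
      ∀ s ∈ P, ∀ u ∈ Tl, r s u → m * len u < ∫ x in {x ∈ E | N x ∈ w u}, W u x ∂μ →
        ∃ v ∈ U, r s v := by
  classical
  set S : Finset τ := Tl.filter (fun u => (∃ s ∈ P, r s u) ∧
    m * len u < ∫ x in {x ∈ E | N x ∈ w u}, W u x ∂μ) with hS
  set U : Finset τ := S.filter (fun u => ∀ v ∈ S, r u v → v = u) with hU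
  have hUS : U ⊆ S := Finset.filter_subset _ _
  have hST : S ⊆ Tl := Finset.filter_subset _ _
  have hUT : U ⊆ Tl := hUS.trans hST
  have hmax : ∀ u ∈ S, ∃ v ∈ U, r u v := by
    let _ : PartialOrder τ :=
      { le := r, le_refl := hrefl, le_trans := fun u v z => htrans u v z,
        le_antisymm := fun u v => hasymm u v }
    intro u hu
    obtain ⟨v, huv, hv⟩ := S.exists_le_maximal hu
    refine ⟨v, ?_, huv⟩
    rw [hU, Finset.mem_filter]
    refine ⟨hv.1, fun z hz hvz => ?_⟩
    exact (hasymm v z hvz (hv.2 hz hvz)).symm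
  refine ⟨U, hUT, ?_, ?_, ?_, ?_⟩
  · intro u hu
    exact (Finset.mem_filter.1 (hUS hu)).2.1
  · intro u hu v hv huv
    exact ((Finset.mem_filter.1 hu).2 v (hUS hv) huv).symm
  · apply count_all μ N len I B B' w W K a b c hb hc ha hac U E m hm
      (fun u hu => hlen u (hUT hu)) (fun u hu => hI u (hUT hu)) (fun u hu => hmI u (hUT hu))
      (fun k hk u hu => hB' k hk u (hUT hu))
      (fun k hk u hu v hv => hgeo k hk u (hUT hu) v (hUT hv))
      ?_ (fun u hu => hmE u (hUT hu)) (fun k hk u hu => hmB k hk u (hUT hu))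
      (fun u hu => hW u (hUT hu)) (fun u hu => hW0 u (hUT hu))
      (fun u hu => (Finset.mem_filter.1 (hUS hu)).2.2)
    intro u hu v hv huv hw
    rw [Set.disjoint_iff_inter_eq_empty, ← Set.not_nonempty_iff_eq_empty]
    intro hne
    rcases hcomp u (hUT hu) v (hUT hv) hw hne with h | h
    · exact huv ((Finset.mem_filter.1 hu).2 v (hUS hv) h).symm
    · exact huv ((Finset.mem_filter.1 hv).2 u (hUS hu) h)
  · intro s hs u hu hsu hheavy
    have huS : u ∈ S := by
      rw [hS, Finset.mem_filter]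
      exact ⟨hu, ⟨s, hs, hsu⟩, hheavy⟩
    obtain ⟨v, hv, huv⟩ := hmax u huS
    exact ⟨v, hv, htrans s u v hsu huv⟩

end Vale.Agent.P091.CH.H98
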