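import Vale.Agent.P091.CH.H98.Mass
import Vale.Agent.P091.CH.H469.Sum

/-!
# Mass of a finite set of tiles and hypothesis (M) of the summation lemma
-/

namespace Vale.Agent.P091.CH.H98

open MeasureTheory H469

variable {τ X F : Type*}

/-- mass of a finite set of tiles: supremum of `M u` over all tiles `u` of the universe `Tl`
which lie above some tile of `Q` (and `0`). -/
noncomputable def ms (Tl : Finset τ) (r : τ → τ → Prop) (M : τ → ℝ) (Q : Finset τ) : ℝ :=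
  haveI := Classical.decPred fun u => ∃ s ∈ Q, r s u
  (((Tl.filter (fun u => ∃ s ∈ Q, r s u)).sup (fun u => Real.toNNReal (M u)) : NNReal) : ℝ)

theorem ms_nonneg (Tl : Finset τ) (r : τ → τ → Prop) (M : τ → ℝ) (Q : Finset τ) :
    0 ≤ ms Tl r M Q := NNReal.coe_nonneg _

theorem ms_le_iff {Tl : Finset τ} {r : τ → τ → Prop} {M : τ → ℝ} {Q : Finset τ} {m : ℝ}
    (hm : 0 ≤ m) : ms Tl r M Q ≤ m ↔ ∀ s ∈ Q, ∀ u ∈ Tl, r s u → M u ≤ m := by
  classical
  unfold ms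
  have h1 : ∀ x : NNReal, ((x : ℝ) ≤ m ↔ x ≤ Real.toNNReal m) := fun x => by
    rw [← Real.toNNReal_coe (r := x), Real.toNNReal_le_toNNReal_iff hm,
      Real.toNNReal_coe]
  rw [h1, Finset.sup_le_iff]
  constructor
  · intro h s hs u hu hsu
    have := h u (by
      simp only [Finset.mem_filter]
      exact ⟨hu, s, hs, hsu⟩)
    exact (Real.toNNReal_le_toNNReal_iff hm).1 this
  · intro h u hu
    simp only [Finset.mem_filter] at hu
    obtain ⟨hu, s, hs, hsu⟩ := hu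
    exact Real.toNNReal_le_toNNReal (h s hs u hu hsu)

theorem ms_mono {Tl : Finset τ} {r : τ → τ → Prop} {M : τ → ℝ} {Q Q' : Finset τ}
    (h : Q ⊆ Q') : ms Tl r M Q ≤ ms Tl r M Q' :=
  (ms_le_iff (ms_nonneg _ _ _ _)).2 fun s hs u hu hsu =>
    (ms_le_iff (ms_nonneg Tl r M Q')).1 le_rfl s (h hs) u hu hsu

theorem le_ms {Tl : Finset τ} {r : τ → τ → Prop} {M : τ → ℝ} {Q : Finset τ} {s u : τ}
    (hs : s ∈ Q) (hu : u ∈ Tl) (hsu : r s u) : M u ≤ ms Tl r M Q :=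
  (ms_le_iff (ms_nonneg Tl r M Q)).1 le_rfl s hs u hu hsu

/-- Hypothesis (M) of `H469.Sys.sum_le`, with `A = 4 (∑ b k / c k) μ(E)`. -/
theorem mass_step [MeasurableSpace X] [DecidableEq τ] (μ : Measure X) [IsFiniteMeasure μ] (N : X → F)
    (Tree : Finset τ → ℝ → Prop)
    (r : τ → τ → Prop) (hrefl : ∀ u, r u u) (htrans : ∀ u v z, r u v → r v z → r u z)
    (hasymm : ∀ u v, r u v → r v u → u = v)
    (len : τ → ℝ) (I : τ → Set X) (B B' : ℕ → τ → Set X) (w : τ → Set F)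
    (W : τ → X → ℝ) (K : ℕ) (a b c : ℕ → ℝ) (hb : ∀ k, 0 ≤ b k) (hc : ∀ k, 0 < c k)
    (ha : ∀ k, 0 ≤ a k) (hac : ∑ k ∈ Finset.range K, a k * c k ≤ 1)
    (Tl : Finset τ) (E : Set X)
    (hTree : ∀ T : Finset τ, ∀ u ∈ Tl, (∀ s ∈ T, r s u) → Tree T (len u))
    (hlen : ∀ u ∈ Tl, 0 < len u)
    (hI : ∀ u ∈ Tl, len u ≤ μ.real (I u))
    (hmI : ∀ u ∈ Tl, MeasurableSet (I u))
    (hB' : ∀ k < K, ∀ u ∈ Tl, μ.real (B' k u) ≤ b k * len u)
    (hgeo : ∀ k < K, ∀ u ∈ Tl, ∀ v ∈ Tl, len v ≤ len u → (w u ∩ w v).Nonempty →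
      (B k u ∩ B k v).Nonempty → I v ⊆ B' k u ∧ w u ⊆ w v)
    (hcomp : ∀ u ∈ Tl, ∀ v ∈ Tl, (w u ∩ w v).Nonempty → (I u ∩ I v).Nonempty → r u v ∨ r v u)
    (hmE : ∀ u ∈ Tl, MeasurableSet {x ∈ E | N x ∈ w u})
    (hmB : ∀ k < K, ∀ u ∈ Tl, MeasurableSet (B k u))
    (hW : ∀ u ∈ Tl, ∀ x, W u x ≤ ∑ k ∈ Finset.range K, a k * (B k u).indicator (fun _ => 1) x)
    (hW0 : ∀ u ∈ Tl, ∀ x, 0 ≤ W u x) (Q : Finset τ) (m : ℝ) (hm : 0 < m) :
    ∃ L, L ⊆ Q ∧
      ms Tl r (fun u => (∫ x in {x ∈ E | N x ∈ w u}, W u x ∂μ) / len u) L ≤ m / 4 ∧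
      Forest Tree (Q \ L) (4 * (∑ k ∈ Finset.range K, b k / c k) * μ.real E / m) := by
  classical
  obtain ⟨U, hUT, -, -, hsum, hcov⟩ := mass_trees μ N r hrefl htrans hasymm len I B B' w W K a b c
    hb hc ha hac Tl E hlen hI hmI hB' hgeo hcomp hmE hmB hW hW0 Q (m / 4) (by positivity)
  set M : τ → ℝ := fun u => (∫ x in {x ∈ E | N x ∈ w u}, W u x ∂μ) / len u with hM
  refine ⟨Q.filter (fun s => ∀ u ∈ Tl, r s u → M u ≤ m / 4), Finset.filter_subset _ _, ?_, ?_⟩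
  · rw [ms_le_iff (by positivity)]
    intro s hs u hu hsu
    exact (Finset.mem_filter.1 hs).2 u hu hsu
  · let e := U.equivFin
    refine ⟨U.card, fun i => Q.filter (fun s => r s (e.symm i)), fun i => len (e.symm i), ?_, ?_, ?_⟩
    · intro i
      apply hTree _ _ (hUT (e.symm i).2)
      intro s hs
      exact (Finset.mem_filter.1 hs).2
    · intro s hs
      rw [Finset.mem_sdiff, Finset.mem_filter] at hs
      have h1 : ∃ u ∈ Tl, r s u ∧ m / 4 < M u := by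
        by_contra hcon
        push Not at hcon
        exact hs.2 ⟨hs.1, fun u hu hsu => hcon u hu hsu⟩
      obtain ⟨u, hu, hsu, hMu⟩ := h1
      have h2 : m / 4 * len u < ∫ x in {x ∈ E | N x ∈ w u}, W u x ∂μ := by
        rw [hM] at hMu
        exact (lt_div_iff₀ (hlen u hu)).1 hMu
      obtain ⟨v, hv, hsv⟩ := hcov s hs.1 u hu hsu h2
      refine ⟨e ⟨v, hv⟩, ?_⟩
      simp only [Equiv.symm_apply_apply, Finset.mem_filter]
      exact ⟨hs.1, hsv⟩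
    · have h3 : ∑ i, len (e.symm i) = ∑ u ∈ U, len u := by
        rw [← Finset.sum_coe_sort U]
        exact Equiv.sum_comp e.symm (fun u : U => len u)
      rw [h3]
      refine hsum.trans (le_of_eq ?_)
      field_simp

end Vale.Agent.P091.CH.H98
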